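import Vale.Agent.P246.R3.H675.K5
import Vale.Agent.P246.T.Top

/-!
# The D(2) property descends along `G * K → G`

Let `K` be a group with a finite presentation `⟨x_1, …, x_p | r_1, …, r_q⟩` which is killed by
`m = p - q` further words `v_1, …, v_m` in the generators. If the free product `G * K` has the
algebraic D(2) property, then so has `G`, and `G` has the (topological) D(2) property of the
problem. The same for `K` free of any finite rank.
-/

namespace Vale.Agent.Results.P246.FreeFactor

open Vale.Agent.P246

theorem result :
    (∀ (G K : Type) [Group G] [Group K] (Q : FinPresentation K) (m : ℕ)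
      (v : Fin m → FreeGroup (Fin Q.gens)),
      Q.rels + m = Q.gens →
      Subgroup.normalClosure (Set.range Q.r ∪ Set.range v) = ⊤ →
      AlgebraicD2Property (Monoid.Coprod G K) → AlgebraicD2Property G ∧ T.D2Property G) ∧
    ∀ (G : Type) [Group G] (n : ℕ),
      AlgebraicD2Property (Monoid.Coprod G (FreeGroup (Fin n))) →
        AlgebraicD2Property G ∧ T.D2Property G :=
  ⟨fun G K _ _ Q m v hm hv h =>
      ⟨H675.freeFactorK G K Q m hm v hv h, T.top G (H675.freeFactorK G K Q m hm v hv h)⟩,
    fun G _ n h => ⟨H675.freeFactor G n h, T.top G (H675.freeFactor G n h)⟩⟩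

end Vale.Agent.Results.P246.FreeFactor
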