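import Vale.Agent.P246.R2.H429.Fin3

/-! # P246: the stable range of the D(2) problem -/

namespace Vale.Agent.Results.P246.StableRange

open Vale.Agent.P246 Vale.Agent.P246.H429

/-- (1) Groups whose integral group ring has a finite stable range. (2) Groups with a subgroup
`ℤ^h` of finite index. (3) Finitely presented virtually abelian groups have such a subgroup. -/
theorem result :
    (∀ (G : Type) [Group G] (P : FinPresentation G) (k : ℕ), 1 ≤ k → SR (ZG G) k →
      AlgRange P k (1 - P.gens) ∧ TopRange P k (1 - P.gens) ∧ TopClass P k) ∧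
    (∀ (G : Type) [Group G] (P : FinPresentation G) (h : ℕ), VirtZ G h →
      SR (ZG G) (h + 2) ∧ AlgRange P (h + 2) 0 ∧ TopRange P (h + 2) 0 ∧ TopClass P (h + 2)) ∧
    ∀ (G : Type) [Group G] (_ : FinPresentation G),
      (∃ N : Subgroup G, N.FiniteIndex ∧ ∀ a ∈ N, ∀ b ∈ N, a * b = b * a) → ∃ h, VirtZ G h := by
  refine ⟨fun G _ P k hk hSR => ?_, fun G _ P h hN => ?_, fun G _ P hN => ?_⟩
  · have hb : ∀ C : Cx (ZG G), IsD2Complex C → ∀ n : ℤ, HasEuler C n → 1 - (P.gens : ℤ) ≤ n :=
      fun C hC n hn => lower P C hC n hn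
    exact ⟨algRange hk hSR P _ hb, topRange topWedge hk hSR P _ hb, topClass hk hSR P⟩
  · have hb : ∀ C : Cx (ZG G), IsD2Complex C → ∀ n : ℤ, HasEuler C n → 0 ≤ n :=
      fun C hC n hn => nonneg hN C hC n hn
    have hSR : SR (ZG G) (h + 2) := sr_va hN
    exact ⟨hSR, algRange (by omega) hSR P _ hb, topRange topWedge (by omega) hSR P _ hb,
      topClass (by omega) hSR P⟩
  · exact Vale.Agent.P246.R2.H888.rowH G (fg_of_pres P) hN

end Vale.Agent.Results.P246.StableRange
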